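import Vale.Agent.P049.Main

namespace Vale.Agent.Results.P049.Ramanujan

open Matrix

/-- For every `d ≥ 3` a deterministic polynomial-time machine, given `n` in unary, writes the
adjacency matrix of a simple `d`-regular Ramanujan graph on `n` vertices, for all large `n` with
`d * n` even. -/
theorem result (d : ℕ) (hd : 3 ≤ d) :
    ∃ (f : ℕ → List Bool)
      (M : Turing.TM2ComputableInPolyTime (fun n : ℕ => List.replicate n true)
        (fun w : List Bool => w) f),
      (∀ k, Finite (M.tm.Γ k)) ∧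
      ∃ n0 : ℕ, ∀ n ≥ n0, Even (d * n) →
        ∃ (G : SimpleGraph (Fin n)) (_ : DecidableRel G.Adj), G.IsRegularOfDegree d ∧
          f n = ((List.finRange n).flatMap fun u =>
            (List.finRange n).map fun v => decide (G.Adj u v)) ∧
          ∀ (c : ℝ) (v : Fin n → ℝ), v ≠ 0 → ∑ u, v u = 0 → G.adjMatrix ℝ *ᵥ v = c • v →
            |c| ≤ 2 * √((d : ℝ) - 1) := by
  obtain ⟨M, hM⟩ := (Vale.Agent.P049.algPT d).rawMachine (fun n : ℕ => List.replicate n true)
    (fun w : List Bool => w) (Vale.Agent.P049.algo d) (fun n => by simp)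
  obtain ⟨n0, h⟩ := Vale.Agent.P049.correct d hd
  refine ⟨_, M, hM, n0, fun n hn he => ?_⟩
  obtain ⟨G, inst, h1, h2, h3⟩ := h n hn he
  refine ⟨G, inst, h1, h2, fun c v v0 vs hv => ?_⟩
  have h4 := h3 v vs
  have h5 : 0 < v ⬝ᵥ v := lt_of_le_of_ne (Finset.sum_nonneg fun i _ => mul_self_nonneg _)
    (fun h => v0 (dotProduct_self_eq_zero.1 h.symm))
  rw [hv, dotProduct_smul, smul_eq_mul, abs_mul, abs_of_pos h5] at h4
  exact le_of_mul_le_mul_right h4 h5

end Vale.Agent.Results.P049.Ramanujan
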